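import Vale.Agent.Lib.P141.Half

/-!
# P141: the trilinear Hilbert transform is unbounded at every Hölder tuple with `r ≤ 7/16`,
and for every `1/3 < r < 1/2` at some Hölder tuple with this `r`
-/

open scoped ENNReal NNReal

namespace Vale.Agent.Results.P141.A_UnboundedBelow

open Vale.Agent.Lib.P141

theorem result :
    (∀ p₁ p₂ p₃ r : ℝ≥0∞, IsHolder p₁ p₂ p₃ r → r ≤ 7 / 16 → ¬ BoundedAt p₁ p₂ p₃ r) ∧
    (∀ r : ℝ≥0∞, 1 / 3 < r → r < 1 / 2 →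
      ∃ p₁ p₂ p₃ : ℝ≥0∞, IsHolder p₁ p₂ p₃ r ∧ ¬ BoundedAt p₁ p₂ p₃ r) :=
  ⟨fun _ _ _ _ hH hr => not_boundedAt_of_le hH hr, fun _ h1 h2 => exists_not_boundedAt h1 h2⟩

end Vale.Agent.Results.P141.A_UnboundedBelow
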