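import Vale.Agent.Lib.P141.Patterns

/-!
# P141: two explicit open regions of Hölder tuples at which the trilinear Hilbert transform is unbounded
-/

open scoped ENNReal NNReal

namespace Vale.Agent.Results.P141.B_Regions

open Vale.Agent.Lib.P141

theorem result (p₁ p₂ p₃ r : ℝ≥0∞) (hH : IsHolder p₁ p₂ p₃ r)
    (hcond : (14 : ℝ) * 4 ^ p₁.toReal⁻¹ * 4 ^ p₂.toReal⁻¹ * 5 ^ p₃.toReal⁻¹ < 14 ^ r.toReal⁻¹ ∨
      (9 : ℝ) * 3 ^ p₁.toReal⁻¹ * 5 ^ p₂.toReal⁻¹ * 3 ^ p₃.toReal⁻¹ < 9 ^ r.toReal⁻¹) :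
    ¬ BoundedAt p₁ p₂ p₃ r := by
  rcases hcond with h | h
  · exact not_boundedAt_14 hH h
  · exact not_boundedAt_9 hH h

end Vale.Agent.Results.P141.B_Regions
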