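import Vale.Agent.Lib.P141.Main

/-!
# P141: every finite digit pattern gives a region of Hölder tuples at which the trilinear Hilbert transform is unbounded
-/

open scoped ENNReal NNReal

namespace Vale.Agent.Results.P141.C_PatternCriterion

open Vale.Agent.Lib.P141

theorem result (P : Finset (ℤ × ℤ)) (b : ℤ) (hb : 2 ≤ b)
    (hP : ∀ u ∈ P, ∀ v ∈ P, b ∣ u.1 - v.1 → u = v)
    (p₁ p₂ p₃ r : ℝ≥0∞) (hH : IsHolder p₁ p₂ p₃ r)
    (hcond : (b : ℝ) * ((P.image (fun g => g.1 - 1 * g.2)).card : ℝ) ^ p₁.toReal⁻¹ *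
        ((P.image (fun g => g.1 - 2 * g.2)).card : ℝ) ^ p₂.toReal⁻¹ *
        ((P.image (fun g => g.1 - 3 * g.2)).card : ℝ) ^ p₃.toReal⁻¹ < (P.card : ℝ) ^ r.toReal⁻¹) :
    ¬ BoundedAt p₁ p₂ p₃ r :=
  not_boundedAt_of_pattern hb hP hH hcond

end Vale.Agent.Results.P141.C_PatternCriterion
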