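import Vale.Agent.Lib.P141.Weak

/-!
# P141: unboundedness of the trilinear Hilbert transform for `r ≤ 7/16`, with the limit written out

For every Hölder tuple with `r ≤ 7/16` and every constant `C` there are Schwartz functions
`f₁, f₂, f₃` whose truncated trilinear Hilbert transforms converge at every point, to a function `g`
with `‖g‖_r > C ‖f₁‖_{p₁} ‖f₂‖_{p₂} ‖f₃‖_{p₃}`.
-/

open MeasureTheory Filter Topology
open scoped ENNReal NNReal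

namespace Vale.Agent.Results.P141.D_ExplicitLimit

open Vale.Agent.Lib.P141

theorem result (p₁ p₂ p₃ r : ℝ≥0∞) (h₁ : 1 < p₁) (h₂ : 1 < p₂) (h₃ : 1 < p₃) (hr0 : 0 < r)
    (hrel : 1 / r = 1 / p₁ + 1 / p₂ + 1 / p₃) (hr : r ≤ 7 / 16) (C : ℝ≥0) :
    ∃ (f₁ f₂ f₃ : SchwartzMap ℝ ℂ) (g : ℝ → ℂ),
      (∀ x : ℝ, Tendsto
        (fun q : ℝ × ℝ => ∫ t in {t : ℝ | q.1 < |t| ∧ |t| < q.2},
          f₁ (x - t) * f₂ (x - 2 * t) * f₃ (x - 3 * t) / (t : ℂ))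
        ((𝓝[>] (0 : ℝ)) ×ˢ (atTop : Filter ℝ)) (𝓝 (g x))) ∧
      (C : ℝ≥0∞) * (eLpNorm f₁ p₁ volume * eLpNorm f₂ p₂ volume * eLpNorm f₃ p₃ volume) <
        eLpNorm g r volume := by
  have hfin : r < ∞ := lt_of_le_of_lt hr
    (ENNReal.div_lt_top (by norm_num) (by norm_num))
  have hH : IsHolder p₁ p₂ p₃ r := ⟨h₁, h₂, h₃, hr0, hfin, hrel⟩
  obtain ⟨S₁, S₂, S₃, M, hsep, hlt⟩ := exists_comb_of_le hH hr C
  exact ⟨combS S₁, combS S₂, combS S₃, triT (combS S₁) (combS S₂) (combS S₃),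
    fun x => tendsto_truncT_comb hsep x, hlt⟩

end Vale.Agent.Results.P141.D_ExplicitLimit
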